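import Vale.Agent.P076.R2.H831V.Spec2

set_option linter.all false

/-! Row Z2: the conclusion for the data. -/

open MeasureTheory Complex FourierTransform Filter Topology Set
open scoped ENNReal NNReal

namespace Vale.Agent.P076.R2.H311

open Vale.Agent.P076 Vale.Agent.P076.H791 Vale.Agent.P076.R2 Vale.Agent.P076.R2.H45
open Vale.Agent.P076.R2.H831 Vale.Agent.P076.R2.H831V

theorem stAniF {n : ℕ} (hn : 1 ≤ n) (h : StAni n) : StAniF n := by
  intro e ε he hε f g hfg hI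
  have hnr : ∀ ξ : Fin n → ℝ, 0 ≤ nrm ξ := fun ξ => Real.sqrt_nonneg _
  have hmn : Measurable fun ξ : Fin n → ℝ => nrm ξ := by
    unfold nrm
    fun_prop
  have hA : ∀ ξ : Fin n → ℝ, 0 ≤ |∑ i, ξ i * e i| ^ (1 / 2 + ε) := fun ξ => by positivity
  have hB : ∀ ξ : Fin n → ℝ, 0 ≤ nrm (ξ - (∑ i, ξ i * e i) • e) ^ (1 + ε) := fun ξ =>
    Real.rpow_nonneg (hnr _) _
  refine strong_of_MP _ ?_ ?_ (h e ε he hε) hfg ?_
  · refine ENNReal.measurable_ofReal.comp ?_
    have h1 : Measurable fun ξ : Fin n → ℝ => |∑ i, ξ i * e i| ^ (1 / 2 + ε) := by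
      refine Measurable.pow_const ?_ _
      fun_prop
    have h2 : Measurable fun ξ : Fin n → ℝ => nrm (ξ - (∑ i, ξ i * e i) • e) ^ (1 + ε) := by
      refine Measurable.pow_const ?_ _
      refine hmn.comp ?_
      fun_prop
    exact (measurable_const.add h1).add h2
  · intro ξ
    refine ENNReal.one_le_ofReal.2 ?_
    have := hA ξ
    have := hB ξ
    linarith
  · have h1 : Integrable fun ξ => ‖g ξ‖ ^ 2 :=
      (memLp_two_iff_integrable_sq_norm hfg.2.1.1).1 hfg.2.1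
    have h2 := (h1.add hI).lintegral_lt_top
    refine lt_of_le_of_lt (le_of_eq ?_) h2
    refine lintegral_congr fun ξ => ?_
    have h3 : 0 ≤ 1 + |∑ i, ξ i * e i| ^ (1 / 2 + ε) +
        nrm (ξ - (∑ i, ξ i * e i) • e) ^ (1 + ε) := by
      have := hA ξ
      have := hB ξ
      linarith
    have h4 : (‖g ξ‖ₑ : ℝ≥0∞) ^ 2 = ENNReal.ofReal (‖g ξ‖ ^ 2) := by
      rw [← ofReal_norm, ENNReal.ofReal_pow (norm_nonneg _)]
    rw [h4, ← ENNReal.ofReal_mul h3]
    congr 1
    simp only [Pi.add_apply]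
    ring

end Vale.Agent.P076.R2.H311
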